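import Vale.Agent.Lib.P154Anti.Cert.D15F.Table0
import Vale.Agent.Lib.P154Anti.Cert.D15F.Masses

namespace Vale.Agent.Lib.P154Anti.Cert.D15F

open Vale.Agent.Lib.P154Anti

theorem L50 : lvlOK3 cfg par tblI0 tblE0 vE vc Q50 17589058439229 Q51 = true := by decide +kernel

theorem L51 : lvlOK3 cfg par tblI0 tblE0 vE vc Q51 17588674868478 Q52 = true := by decide +kernel

theorem L52 : lvlOK3 cfg par tblI0 tblE0 vE vc Q52 17588966100551 Q53 = true := by decide +kernel

theorem L53 : lvlOK3 cfg par tblI0 tblE0 vE vc Q53 17589254201199 Q54 = true := by decide +kernel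

theorem L54 : lvlOK3 cfg par tblI0 tblE0 vE vc Q54 17589131213223 Q55 = true := by decide +kernel

theorem L55 : lvlOK3 cfg par tblI0 tblE0 vE vc Q55 17588862919075 Q56 = true := by decide +kernel

end Vale.Agent.Lib.P154Anti.Cert.D15F
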